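import Mathlib

/-!
P133 (helper157): spectral pieces of a self-adjoint element under a local unit.
-/

open scoped ComplexOrder

namespace Vale.Agent.P133.R2.H157

universe u

/-- the clamp function -/
noncomputable def cl (x : ℝ) : ℝ := min (max x 0) 1

theorem cl_cont : Continuous cl := by unfold cl; fun_prop

theorem cl_mono : Monotone cl := fun _ _ h => min_le_min_right 1 (max_le_max_right 0 h)

theorem cl_one {x : ℝ} (h : 1 ≤ x) : cl x = 1 := min_eq_right (h.trans (le_max_left x 0))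

theorem cl_zero {x : ℝ} (h : x ≤ 0) : cl x = 0 := by
  unfold cl
  rw [max_eq_right h, min_eq_left zero_le_one]

theorem cl_id {x : ℝ} (h : 0 ≤ x) (h1 : x ≤ 1) : cl x = x := by
  unfold cl
  rw [max_eq_left h, min_eq_left h1]

theorem cl_nonneg (x : ℝ) : 0 ≤ cl x := le_min (le_max_right _ _) zero_le_one

theorem cl_le_one (x : ℝ) : cl x ≤ 1 := min_le_right _ _

/-- the hat function at `j * η` -/
noncomputable def hat (η : ℝ) (j : ℤ) (t : ℝ) : ℝ := cl (t / η - (j - 1)) - cl (t / η - j)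

theorem hat_cont (η : ℝ) (j : ℤ) : Continuous (hat η j) := by
  unfold hat
  exact (cl_cont.comp (by fun_prop)).sub (cl_cont.comp (by fun_prop))

theorem hat_nonneg (η : ℝ) (j : ℤ) (t : ℝ) : 0 ≤ hat η j t :=
  sub_nonneg.2 (cl_mono (by linarith))

theorem hat_le_one (η : ℝ) (j : ℤ) (t : ℝ) : hat η j t ≤ 1 := by
  unfold hat
  linarith [cl_le_one (t / η - (j - 1)), cl_nonneg (t / η - j)]

theorem hat_left {η : ℝ} (hη : 0 < η) {j : ℤ} {t : ℝ} (h : η < t - j * η) : hat η j t = 0 := by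
  unfold hat
  have h1 : 1 ≤ t / η - j := by
    rw [le_sub_iff_add_le, le_div_iff₀ hη]
    linarith
  rw [cl_one h1, cl_one (by linarith), sub_self]

theorem hat_right {η : ℝ} (hη : 0 < η) {j : ℤ} {t : ℝ} (h : t - j * η < -η) : hat η j t = 0 := by
  unfold hat
  have h1 : t / η - (j - 1) ≤ 0 := by
    rw [sub_nonpos, div_le_iff₀ hη]
    linarith
  rw [cl_zero h1, cl_zero (by linarith), sub_self]

theorem hat_upper {η : ℝ} (hη : 0 < η) (j : ℤ) (t : ℝ) : 0 ≤ (η - (t - j * η)) * hat η j t := by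
  rcases lt_or_ge η (t - j * η) with h | h
  · rw [hat_left hη h, mul_zero]
  · exact mul_nonneg (by linarith) (hat_nonneg _ _ _)

theorem hat_lower {η : ℝ} (hη : 0 < η) (j : ℤ) (t : ℝ) : 0 ≤ (η + (t - j * η)) * hat η j t := by
  rcases lt_or_ge (t - j * η) (-η) with h | h
  · rw [hat_right hη h, mul_zero]
  · exact mul_nonneg (by linarith) (hat_nonneg _ _ _)

theorem hat_sum (η : ℝ) (N : ℕ) (t : ℝ) (M : ℕ) :
    ∑ k ∈ Finset.range M, hat η ((k : ℤ) - N) t
      = cl (t / η - (-(N : ℝ) - 1)) - cl (t / η - ((M : ℝ) - N - 1)) := by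
  induction M with
  | zero => simp
  | succ M ih =>
    rw [Finset.sum_range_succ, ih]
    unfold hat
    push_cast
    rw [show (M : ℝ) + 1 - N - 1 = M - N by ring]
    ring

theorem hat_sum_one {η : ℝ} (hη : 0 < η) {N : ℕ} {t : ℝ} (h : |t| ≤ N * η) :
    ∑ k ∈ Finset.range (2 * N + 2), hat η ((k : ℤ) - N) t = 1 := by
  rw [hat_sum]
  have h1 := abs_le.1 h
  have h2 : -(N : ℝ) ≤ t / η := by rw [le_div_iff₀ hη]; linarith [h1.1]
  have h3 : t / η ≤ N := by rw [div_le_iff₀ hη]; exact h1.2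
  rw [cl_one (by linarith), cl_zero (by push_cast; linarith), sub_zero]

theorem hat_sum_sq {η : ℝ} (hη : 0 < η) {N : ℕ} {t : ℝ} (h : |t| ≤ N * η) :
    1 ≤ 2 * ∑ k ∈ Finset.range (2 * N + 2), hat η ((k : ℤ) - N) t ^ 2 := by
  have h1 := abs_le.1 h
  have h2 : -(N : ℝ) ≤ t / η := by rw [le_div_iff₀ hη]; linarith [h1.1]
  have h3 : t / η ≤ N := by rw [div_le_iff₀ hη]; exact h1.2
  set x := t / η with hx
  have f1 : (⌊x⌋ : ℝ) ≤ x := Int.floor_le x
  have f2 : x < ⌊x⌋ + 1 := Int.lt_floor_add_one x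
  have f3 : -(N : ℤ) ≤ ⌊x⌋ := Int.le_floor.2 (by push_cast; exact h2)
  have f4 : ⌊x⌋ ≤ N := by
    have : (⌊x⌋ : ℝ) ≤ N := f1.trans h3
    exact_mod_cast this
  obtain ⟨k, hk⟩ := Int.eq_ofNat_of_zero_le (show 0 ≤ ⌊x⌋ + N by linarith)
  have hk2 : k < 2 * N + 1 := by omega
  have g1 : hat η ((k : ℤ) - N) t = 1 - (x - ⌊x⌋) := by
    unfold hat
    have : (((k : ℤ) - N : ℤ) : ℝ) = ⌊x⌋ := by
      rw [show (k : ℤ) - N = ⌊x⌋ by omega]
    rw [this, ← hx, cl_one (by linarith), cl_id (by linarith) (by linarith)]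
  have g2 : hat η (((k + 1 : ℕ) : ℤ) - N) t = x - ⌊x⌋ := by
    unfold hat
    have : ((((k + 1 : ℕ) : ℤ) - N : ℤ) : ℝ) = ⌊x⌋ + 1 := by
      rw [show ((k + 1 : ℕ) : ℤ) - N = ⌊x⌋ + 1 by push_cast; omega]
      push_cast
      rfl
    rw [this, ← hx, cl_id (by linarith) (by linarith), cl_zero (by linarith)]
    ring
  have hsub : ({k, k + 1} : Finset ℕ) ⊆ Finset.range (2 * N + 2) := by
    intro a ha
    simp only [Finset.mem_insert, Finset.mem_singleton] at ha
    rw [Finset.mem_range]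
    omega
  have hle := Finset.sum_le_sum_of_subset_of_nonneg
    (f := fun k : ℕ => hat η ((k : ℤ) - N) t ^ 2) hsub (fun _ _ _ => sq_nonneg _)
  rw [Finset.sum_pair (by omega)] at hle
  rw [g1, g2] at hle
  nlinarith [sq_nonneg (1 - 2 * (x - ⌊x⌋))]

section

variable {D : Type u} [NonUnitalCStarAlgebra D] [PartialOrder D] [StarOrderedRing D]

omit [PartialOrder D] [StarOrderedRing D] in
theorem ideal_mem (X : Unitization ℂ D) (e : D) : ∃ b : D, (b : Unitization ℂ D) = X * e := by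
  refine ⟨X.fst • e + X.snd * e, ?_⟩
  ext
  · simp
  · simp

theorem aux {R : Type u} [Ring R] (p q r y : R) : p * y - (q * y - r * y) = (p - (q - r)) * y := by
  rw [sub_mul, sub_mul]

omit [PartialOrder D] [StarOrderedRing D] in
/-- a positive function of `d` times `e` is positive -/
theorem T_nonneg {x y : Unitization ℂ D} (hy : 0 ≤ y) (hxy : Commute x y) (_ : IsSelfAdjoint x)
    {ψ : ℝ → ℝ} (hψ : Continuous ψ) (h0 : ∀ t, t ∈ spectrum ℝ x → 0 ≤ ψ t) :
    0 ≤ cfc ψ x * y := by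
  have hs : Continuous fun t => √(ψ t) := Real.continuous_sqrt.comp hψ
  have e1 : cfc ψ x = cfc (fun t => √(ψ t)) x * cfc (fun t => √(ψ t)) x := by
    rw [← cfc_mul _ _ x hs.continuousOn hs.continuousOn]
    exact cfc_congr fun t ht => (Real.mul_self_sqrt (h0 t ht)).symm
  have e2 : Commute (cfc (fun t => √(ψ t)) x) y := hxy.cfc_real _
  have e3 : IsSelfAdjoint (cfc (fun t => √(ψ t)) x) := cfc_predicate _ x
  rw [e1, mul_assoc, e2.eq, ← mul_assoc]
  have := star_left_conjugate_nonneg hy (cfc (fun t => √(ψ t)) x)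
  rwa [e3.star_eq] at this

/-- **Spectral pieces.** -/
theorem pieces {d e : D} (hd : IsSelfAdjoint d) (he : 0 ≤ e) (he1 : ‖e‖ ≤ 1) (h1 : e * d = d)
    (h2 : d * e = d) {η : ℝ} (hη : 0 < η) :
    ∃ (m : ℕ) (s : Fin m → ℝ) (a : Fin m → D), (∀ i, 0 ≤ a i) ∧ (∀ i, ‖a i‖ ≤ 1) ∧
      (∀ i, Commute (a i) d) ∧ (∀ i, Commute (a i) e) ∧ (∀ i, |s i| ≤ ‖d‖ + 2 * η) ∧
      ∑ i, a i * a i = e ∧ e * e ≤ (2 : ℝ) • ∑ i, (a i * a i) * (a i * a i) ∧
      ∀ i, a i * d * a i - s i • (a i * a i) ≤ η • (a i * a i) ∧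
        -(η • (a i * a i)) ≤ a i * d * a i - s i • (a i * a i) := by
  set x : Unitization ℂ D := (d : Unitization ℂ D) with hx
  set y : Unitization ℂ D := (e : Unitization ℂ D) with hy
  have hxs : IsSelfAdjoint x := by
    rw [hx, isSelfAdjoint_iff, ← Unitization.inr_star, hd.star_eq]
  have hy0 : 0 ≤ y := by rw [hy, Unitization.inr_nonneg_iff]; exact he
  have hyx : y * x = x := by rw [hx, hy, ← Unitization.inr_mul, h1]
  have hxy' : x * y = x := by rw [hx, hy, ← Unitization.inr_mul, h2]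
  have hxy : Commute x y := by rw [Commute, SemiconjBy, hyx, hxy']
  have hnx : ‖x‖ = ‖d‖ := Unitization.norm_inr (𝕜 := ℂ) d
  obtain ⟨N, hN, hN2⟩ : ∃ N : ℕ, ‖d‖ / η ≤ N ∧ (N : ℝ) < ‖d‖ / η + 1 :=
    ⟨⌈‖d‖ / η⌉₊, Nat.le_ceil _, Nat.ceil_lt_add_one (div_nonneg (norm_nonneg d) hη.le)⟩
  have hN' : ‖d‖ ≤ N * η := by rwa [div_le_iff₀ hη] at hN
  have hN3 : N * η < ‖d‖ + η := by
    have := mul_lt_mul_of_pos_right hN2 hη
    rwa [add_mul, div_mul_cancel₀ _ hη.ne', one_mul] at this
  have hspec : ∀ t, t ∈ spectrum ℝ x → |t| ≤ N * η := fun t ht => by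
    have h3 := spectrum.norm_le_norm_of_mem ht
    rw [Real.norm_eq_abs, hnx] at h3
    exact h3.trans hN'
  let H : Fin (2 * N + 2) → ℝ → ℝ := fun k => hat η (((k : ℕ) : ℤ) - N)
  have Hc : ∀ k, Continuous (H k) := fun k => hat_cont _ _
  have Hy : ∀ k, Commute (cfc (H k) x) y := fun k => hxy.cfc_real _
  have Hx : ∀ k, Commute (cfc (H k) x) x := fun k => (Commute.refl x).cfc_real _
  choose b hb using fun k => ideal_mem (cfc (H k) x) e
  have b0 : ∀ k, 0 ≤ b k := fun k => by
    rw [← Unitization.inr_nonneg_iff (A := D), hb k]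
    exact T_nonneg hy0 hxy hxs (Hc k) fun t _ => hat_nonneg _ _ _
  have inj : ∀ {u v : D}, (u : Unitization ℂ D) = v → u = v := fun h => Unitization.inr_injective h
  have bd : ∀ k, Commute (b k) d := fun k => by
    apply inj
    rw [Unitization.inr_mul, Unitization.inr_mul, hb k, ← hx, ← hy]
    exact ((Hx k).mul_left hxy.symm).eq
  have be : ∀ k, Commute (b k) e := fun k => by
    apply inj
    rw [Unitization.inr_mul, Unitization.inr_mul, hb k, ← hy, (Hy k).eq, mul_assoc, (Hy k).eq]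
  let a : Fin (2 * N + 2) → D := fun k => CFC.sqrt (b k)
  have aa : ∀ k, a k * a k = b k := fun k => CFC.sqrt_mul_sqrt_self (b k) (b0 k)
  have a0 : ∀ k, 0 ≤ a k := fun k => CFC.sqrt_nonneg (b k)
  have ad : ∀ k, Commute (a k) d := fun k => (bd k).cfcₙ_nnreal _
  have ae : ∀ k, Commute (a k) e := fun k => (be k).cfcₙ_nnreal _
  have dk : ∀ k, ((a k * d * a k : D) : Unitization ℂ D) = cfc (fun t => t * H k t) x * y := by
    intro k
    have e1 : a k * d * a k = d * b k := by rw [(ad k).eq, mul_assoc, aa k]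
    rw [e1, Unitization.inr_mul, hb k, ← hx, ← hy, ← mul_assoc]
    congr 1
    rw [cfc_mul (fun t => t) (H k) x continuousOn_id (Hc k).continuousOn, cfc_id' ℝ x]
  have smul_cfc : ∀ (k) (c : ℝ), ((c • b k : D) : Unitization ℂ D)
      = cfc (fun t => c * H k t) x * y := by
    intro k c
    rw [Unitization.inr_smul, hb k, cfc_const_mul c (H k) x (Hc k).continuousOn, smul_mul_assoc]
  refine ⟨2 * N + 2, fun k => (((k : ℕ) : ℝ) - N) * η, a, a0, ?_, ad, ae, ?_, ?_, ?_, ?_⟩
  · intro k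
    have e1 : ‖a k‖ * ‖a k‖ = ‖b k‖ := by
      rw [← CStarRing.norm_star_mul_self, (IsSelfAdjoint.of_nonneg (a0 k)).star_eq, aa k]
    have e2 : ‖b k‖ ≤ 1 := by
      rw [← Unitization.norm_inr (𝕜 := ℂ) (b k), hb k]
      refine (norm_mul_le _ _).trans ?_
      rw [Unitization.norm_inr (𝕜 := ℂ) e]
      have e3 : ‖cfc (H k) x‖ ≤ 1 := norm_cfc_le zero_le_one fun t _ => by
        rw [Real.norm_eq_abs, abs_of_nonneg (hat_nonneg _ _ _)]
        exact hat_le_one _ _ _
      nlinarith [norm_nonneg (cfc (H k) x), norm_nonneg e]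
    nlinarith [norm_nonneg (a k)]
  · intro k
    have hk : ((k : ℕ) : ℝ) ≤ 2 * N + 1 := by
      have := k.2
      have h4 : (k : ℕ) ≤ 2 * N + 1 := by omega
      exact_mod_cast h4
    have hk0 : (0 : ℝ) ≤ ((k : ℕ) : ℝ) := Nat.cast_nonneg _
    have h5 : |((k : ℕ) : ℝ) - N| ≤ N + 1 := abs_le.2 ⟨by linarith, by linarith⟩
    rw [abs_mul, abs_of_pos hη]
    nlinarith [mul_le_mul_of_nonneg_right h5 hη.le]
  · have e1 : ∑ k, a k * a k = ∑ k, b k := Finset.sum_congr rfl fun k _ => aa k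
    rw [e1]
    apply inj
    have e2 : ((∑ k, b k : D) : Unitization ℂ D) = ∑ k, (b k : Unitization ℂ D) :=
      map_sum (Unitization.inrNonUnitalStarAlgHom ℂ D) b Finset.univ
    rw [e2]
    simp only [hb]
    rw [← Finset.sum_mul, ← cfc_sum_univ H x (fun k => (Hc k).continuousOn), ← hy]
    have e3 : cfc (∑ k, H k) x = 1 := by
      rw [← cfc_one ℝ x]
      refine cfc_congr fun t ht => ?_
      rw [Finset.sum_apply, Pi.one_apply, ← hat_sum_one hη (hspec t ht)]
      exact Fin.sum_univ_eq_sum_range (fun k => hat η ((k : ℤ) - N) t) (2 * N + 2)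
    rw [e3, one_mul]
  · have e1 : ∀ k, a k * a k * (a k * a k) = b k * b k := fun k => by rw [aa k]
    simp only [e1]
    rw [← sub_nonneg, ← Unitization.inr_nonneg_iff (A := D)]
    have e2 : ((∑ k, b k * b k : D) : Unitization ℂ D) = ∑ k, (b k : Unitization ℂ D) * b k := by
      exact (map_sum (Unitization.inrNonUnitalStarAlgHom ℂ D) (fun k => b k * b k)
        Finset.univ).trans (Finset.sum_congr rfl fun k _ => Unitization.inr_mul ℂ _ _)
    have e4 : ∀ k, (b k : Unitization ℂ D) * b k = cfc (fun t => H k t ^ 2) x * (y * y) := by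
      intro k
      rw [hb k, ← hy, cfc_pow (H k) 2 x (Hc k).continuousOn, pow_two, mul_assoc, mul_assoc,
        ← mul_assoc y, ← (Hy k).eq, mul_assoc]
    have e5 : (((2 : ℝ) • ∑ k, b k * b k - e * e : D) : Unitization ℂ D)
        = cfc (fun t => 2 * (∑ k, fun t => H k t ^ 2) t - 1) x * (y * y) := by
      have hc : Continuous (∑ k, fun t => H k t ^ 2) := by
        rw [show (∑ k, fun t => H k t ^ 2) = fun t => ∑ k, H k t ^ 2 from by
          ext t; rw [Finset.sum_apply]]
        exact continuous_finsetSum _ fun k _ => (Hc k).pow 2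
      rw [Unitization.inr_sub, Unitization.inr_smul, e2, Unitization.inr_mul, ← hy]
      simp only [e4]
      rw [← Finset.sum_mul, ← cfc_sum_univ (fun k t => H k t ^ 2) x
        (fun k => ((Hc k).pow 2).continuousOn),
        cfc_sub (fun t => 2 * (∑ k, fun t => H k t ^ 2) t) (fun _ => (1 : ℝ)) x
          (continuousOn_const.mul hc.continuousOn) continuousOn_const,
        cfc_const_mul 2 (∑ k, fun t => H k t ^ 2) x hc.continuousOn, cfc_const_one ℝ x, sub_mul,
        one_mul, smul_mul_assoc]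
    rw [e5]
    have hc2 : Continuous (fun t => 2 * (∑ k, fun t => H k t ^ 2) t - 1) := by
      rw [show (∑ k, fun t => H k t ^ 2) = fun t => ∑ k, H k t ^ 2 from by
        ext t; rw [Finset.sum_apply]]
      exact (continuous_const.mul (continuous_finsetSum _ fun k _ => (Hc k).pow 2)).sub
        continuous_const
    refine T_nonneg ?_ (hxy.mul_right hxy) hxs hc2 fun t ht => ?_
    · have := star_mul_self_nonneg y
      rwa [(IsSelfAdjoint.of_nonneg hy0).star_eq] at this
    · rw [Finset.sum_apply]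
      have := hat_sum_sq hη (hspec t ht)
      rw [← Fin.sum_univ_eq_sum_range (fun k => hat η ((k : ℤ) - N) t ^ 2) (2 * N + 2)] at this
      exact sub_nonneg.2 this
  · intro k
    rw [aa k]
    have c1 : Continuous fun t => t * H k t := continuous_id.mul (Hc k)
    have key : ∀ c : ℝ, ((c • b k - (a k * d * a k -
        ((((k : ℕ) : ℝ) - N) * η) • b k) : D) : Unitization ℂ D)
        = cfc (fun t => c * H k t - (t * H k t - (((k : ℕ) : ℝ) - N) * η * H k t)) x * y := by
      intro c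
      rw [Unitization.inr_sub, Unitization.inr_sub, smul_cfc, smul_cfc, dk,
        cfc_sub (fun t => c * H k t) (fun t => t * H k t - (((k : ℕ) : ℝ) - N) * η * H k t) x
          (continuousOn_const.mul (Hc k).continuousOn)
          (c1.continuousOn.sub (continuousOn_const.mul (Hc k).continuousOn)),
        cfc_sub (fun t => t * H k t) (fun t => (((k : ℕ) : ℝ) - N) * η * H k t) x c1.continuousOn
          (continuousOn_const.mul (Hc k).continuousOn)]
      exact aux _ _ _ _
    constructor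
    · rw [← sub_nonneg, ← Unitization.inr_nonneg_iff (A := D), key]
      refine T_nonneg hy0 hxy hxs ?_ fun t _ => ?_
      · exact (continuous_const.mul (Hc k)).sub (c1.sub (continuous_const.mul (Hc k)))
      · have := hat_upper hη (((k : ℕ) : ℤ) - N) t
        push_cast at this
        change 0 ≤ (η - (t - (((k : ℕ) : ℝ) - N) * η)) * H k t at this
        linarith
    · have e6 : a k * d * a k - ((((k : ℕ) : ℝ) - N) * η) • b k - -(η • b k)
          = -((-η) • b k - (a k * d * a k - ((((k : ℕ) : ℝ) - N) * η) • b k)) := by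
        rw [neg_smul]; abel
      rw [← sub_nonneg, e6, ← Unitization.inr_nonneg_iff (A := D), Unitization.inr_neg, key,
        ← neg_mul, ← cfc_neg]
      refine T_nonneg hy0 hxy hxs ?_ fun t _ => ?_
      · exact ((continuous_const.mul (Hc k)).sub (c1.sub (continuous_const.mul (Hc k)))).neg
      · have := hat_lower hη (((k : ℕ) : ℤ) - N) t
        push_cast at this
        change 0 ≤ (η + (t - (((k : ℕ) : ℝ) - N) * η)) * H k t at this
        linarith

end

end Vale.Agent.P133.R2.H157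

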